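import Vale.Agent.P323.Main

/-- There is a model of ZF in which the Partition Principle holds and the Axiom of Choice fails. -/
theorem Vale.Agent.Results.P323.A_full.result :
    ∃ (M : Type) (_ : Nonempty M) (mem : M → M → Prop),
      Vale.Agent.P323.ZF mem ∧ Vale.Agent.P323.PP mem ∧ ¬ Vale.Agent.P323.AC mem :=
  Vale.Agent.P323.exists_model
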